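import Vale.Agent.P183.Defs
import Mathlib.Algebra.Ring.Subring.Basic
import Mathlib.Algebra.Ring.Pi
import Mathlib.Algebra.BigOperators.Ring.Finset
import Mathlib.Algebra.BigOperators.Pi
import Mathlib.Data.ZMod.Basic
import Mathlib.Data.Fintype.Pi
import Mathlib.Tactic.FinCases

set_option autoImplicit false

/-!
P183: the equivalence relations of a finite set preserved by a set of maps, and the subrings of
the ring of all functions to `ZMod 2` closed under the corresponding ring endomorphisms, are dual
to each other.
-/

namespace Vale.Agent.P183.R2.H285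

open Vale.Agent.P183

/-- The subrings over `S` closed under the ring endomorphisms in `F`. -/
abbrev ClosedSubrings (R : Type) [CommRing R] (S : Subring R) (F : Set (R →+* R)) : Type :=
  {P : Subring R // S ≤ P ∧ ∀ φ ∈ F, ∀ x ∈ P, φ x ∈ P}

/-- The equivalence relations of `X` preserved by the maps in `F`. -/
abbrev Preserved (X : Type) (F : Set (X → X)) : Type :=
  {r : Setoid X // ∀ f ∈ F, ∀ x y, r x y → r (f x) (f y)}

variable {X : Type}

/-- The functions constant on the classes of `r`. -/
def constOn (r : Setoid X) : Subring (X → ZMod 2) where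
  carrier := {p | ∀ x y, r x y → p x = p y}
  zero_mem' := fun _ _ _ => rfl
  one_mem' := fun _ _ _ => rfl
  add_mem' := fun ha hb x y h => by simp [ha x y h, hb x y h]
  mul_mem' := fun ha hb x y h => by simp [ha x y h, hb x y h]
  neg_mem' := fun ha x y h => by simp [ha x y h]

theorem mem_constOn (r : Setoid X) (p : X → ZMod 2) :
    p ∈ constOn r ↔ ∀ x y, r x y → p x = p y := Iff.rfl

/-- Two points are equivalent if all functions of the subring agree there. -/
def sepRel (P : Subring (X → ZMod 2)) : Setoid X where
  r := fun x y => ∀ p ∈ P, p x = p y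
  iseqv := ⟨fun _ _ _ => rfl, fun h p hp => (h p hp).symm,
    fun h1 h2 p hp => (h1 p hp).trans (h2 p hp)⟩

theorem sepRel_apply (P : Subring (X → ZMod 2)) (x y : X) :
    sepRel P x y ↔ ∀ p ∈ P, p x = p y := Iff.rfl

theorem sepRel_constOn (r : Setoid X) : sepRel (constOn r) = r := by
  classical
  apply Setoid.ext
  intro x y
  constructor
  · intro h
    by_contra hxy
    have h1 : (fun z => if r x z then (1 : ZMod 2) else 0) ∈ constOn r := by
      intro a b hab
      have : r x a ↔ r x b := ⟨fun h => r.trans h hab, fun h => r.trans h (r.symm hab)⟩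
      simp only [this]
    have h2 := h _ h1
    simp only [r.refl x, if_true, if_neg hxy] at h2
    exact one_ne_zero h2
  · intro h p hp
    exact hp x y h

theorem le_constOn_sepRel (P : Subring (X → ZMod 2)) : P ≤ constOn (sepRel P) :=
  fun _ hp _ _ h => h _ hp

theorem zmod2_cases (a : ZMod 2) : a = 0 ∨ a = 1 := by
  fin_cases a
  · exact Or.inl rfl
  · exact Or.inr rfl

theorem exists_sep (P : Subring (X → ZMod 2)) (x y : X) (h : ¬ sepRel P x y) :
    ∃ q ∈ P, q x = 1 ∧ q y = 0 := by
  rw [sepRel_apply] at h
  push Not at h
  obtain ⟨p, hp, hne⟩ := h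
  rcases zmod2_cases (p x) with h0 | h1
  · have hy : p y = 1 := by
      rcases zmod2_cases (p y) with h2 | h2
      · exact absurd (h0.trans h2.symm) hne
      · exact h2
    refine ⟨1 - p, P.sub_mem P.one_mem hp, ?_, ?_⟩
    · simp [h0]
    · simp [hy]
  · have hy : p y = 0 := by
      rcases zmod2_cases (p y) with h2 | h2
      · exact h2
      · exact absurd (h1.trans h2.symm) hne
    exact ⟨p, hp, h1, hy⟩

theorem class_mem [Finite X] (P : Subring (X → ZMod 2)) (x : X) :
    ∃ e ∈ P, (∀ z, sepRel P x z → e z = 1) ∧ ∀ z, ¬ sepRel P x z → e z = 0 := by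
  classical
  have := Fintype.ofFinite X
  choose! q hq using fun y => exists_sep P x y
  refine ⟨∏ y ∈ Finset.univ.filter (fun y => ¬ sepRel P x y), q y, ?_, ?_, ?_⟩
  · exact P.prod_mem fun y hy => (hq y (Finset.mem_filter.1 hy).2).1
  · intro z hz
    rw [Finset.prod_apply]
    refine Finset.prod_eq_one fun y hy => ?_
    obtain ⟨h1, h2, -⟩ := hq y (Finset.mem_filter.1 hy).2
    rw [← hz _ h1]
    exact h2
  · intro z hz
    rw [Finset.prod_apply]
    exact Finset.prod_eq_zero (Finset.mem_filter.2 ⟨Finset.mem_univ z, hz⟩) (hq z hz).2.2

theorem constOn_sepRel [Finite X] (P : Subring (X → ZMod 2)) : constOn (sepRel P) = P := by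
  classical
  have := Fintype.ofFinite X
  refine le_antisymm (fun f hf => ?_) (le_constOn_sepRel P)
  choose e he using fun x => class_mem P x
  have key : f = 1 - ∏ x ∈ Finset.univ.filter (fun x => f x = 1), (1 - e x) := by
    funext z
    rw [Pi.sub_apply, Pi.one_apply, Finset.prod_apply]
    rcases zmod2_cases (f z) with h0 | h1
    · rw [h0]
      have : ∏ x ∈ Finset.univ.filter (fun x => f x = 1), (1 - e x) z = 1 := by
        refine Finset.prod_eq_one fun x hx => ?_
        have hx1 := (Finset.mem_filter.1 hx).2
        have hxz : ¬ sepRel P x z := by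
          intro h
          have := hf x z h
          rw [hx1, h0] at this
          exact one_ne_zero this
        rw [Pi.sub_apply, Pi.one_apply, (he x).2.2 z hxz, sub_zero]
      rw [this, sub_self]
    · rw [h1]
      have : ∏ x ∈ Finset.univ.filter (fun x => f x = 1), (1 - e x) z = 0 := by
        refine Finset.prod_eq_zero (Finset.mem_filter.2 ⟨Finset.mem_univ z, h1⟩) ?_
        rw [Pi.sub_apply, Pi.one_apply, (he z).2.1 z ((sepRel P).refl z), sub_self]
      rw [this, sub_zero]
  rw [key]
  exact P.sub_mem P.one_mem (P.prod_mem fun x _ => P.sub_mem P.one_mem (he x).1)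

/-- The ring endomorphism `p ↦ p ∘ f`. -/
def pull (f : X → X) : (X → ZMod 2) →+* (X → ZMod 2) where
  toFun := fun p => p ∘ f
  map_one' := rfl
  map_mul' := fun _ _ => rfl
  map_zero' := rfl
  map_add' := fun _ _ => rfl

@[simp] theorem pull_apply (f : X → X) (p : X → ZMod 2) (x : X) : pull f p x = p (f x) := rfl

theorem preserved_iff (r : Setoid X) (f : X → X) :
    (∀ x y, r x y → r (f x) (f y)) ↔ ∀ p ∈ constOn r, pull f p ∈ constOn r := by
  constructor
  · intro h p hp x y hxy
    exact hp _ _ (h x y hxy)
  · intro h x y hxy
    have h1 : sepRel (constOn r) (f x) (f y) := fun p hp => h p hp x y hxy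
    rwa [sepRel_constOn] at h1

/-- The duality between preserved equivalence relations and closed subrings. -/
def dualIso [Finite X] (F : Set (X → X)) :
    (Preserved X F)ᵒᵈ ≃o ClosedSubrings (X → ZMod 2) ⊥ (pull '' F) where
  toFun := fun r => ⟨constOn (OrderDual.ofDual r).1, bot_le, by
    rintro _ ⟨f, hf, rfl⟩
    exact (preserved_iff _ f).1 ((OrderDual.ofDual r).2 f hf)⟩
  invFun := fun P => OrderDual.toDual ⟨sepRel P.1, fun f hf => by
    rw [preserved_iff, constOn_sepRel]
    exact P.2.2 (pull f) ⟨f, hf, rfl⟩⟩
  left_inv := fun r => congrArg OrderDual.toDual (Subtype.ext (sepRel_constOn _))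
  right_inv := fun P => Subtype.ext (constOn_sepRel P.1)
  map_rel_iff' := by
    intro r s
    constructor
    · intro h
      have h' : constOn (OrderDual.ofDual r).1 ≤ constOn (OrderDual.ofDual s).1 := h
      show (OrderDual.ofDual s).1 ≤ (OrderDual.ofDual r).1
      rw [← sepRel_constOn (OrderDual.ofDual s).1, ← sepRel_constOn (OrderDual.ofDual r).1]
      intro x y hxy p hp
      exact hxy p (h' hp)
    · intro h
      have h' : (OrderDual.ofDual s).1 ≤ (OrderDual.ofDual r).1 := h
      show constOn (OrderDual.ofDual r).1 ≤ constOn (OrderDual.ofDual s).1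
      intro p hp x y hxy
      exact hp x y (h' hxy)

/-- The basic translations of an algebra. -/
def translations (A : FiniteAlgebra) : Set (A.carrier → A.carrier) :=
  {f | ∃ (i : A.index) (x : Fin (A.arity i) → A.carrier) (j : Fin (A.arity i)),
    f = fun z => A.op i (Function.update x j z)}

theorem isCongruence_iff_translations (A : FiniteAlgebra) (r : Setoid A.carrier) :
    A.IsCongruence r ↔ ∀ f ∈ translations A, ∀ x y, r x y → r (f x) (f y) := by
  classical
  constructor
  · rintro h _ ⟨i, x, j, rfl⟩ a b hab
    refine h i _ _ fun k => ?_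
    by_cases hk : k = j
    · subst hk
      simpa using hab
    · simp only [Function.update_of_ne hk]
      exact r.refl _
  · intro h i x y hxy
    have key : ∀ s : Finset (Fin (A.arity i)),
        r (A.op i x) (A.op i (fun k => if k ∈ s then y k else x k)) := by
      intro s
      induction s using Finset.induction_on with
      | empty => simp
      | insert j s hj ih =>
        refine r.trans ih ?_
        have h1 := h _ ⟨i, (fun k => if k ∈ s then y k else x k), j, rfl⟩ (x j) (y j) (hxy j)
        have e1 : Function.update (fun k => if k ∈ s then y k else x k) j (x j) =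
            fun k => if k ∈ s then y k else x k := by
          funext k
          by_cases hk : k = j
          · subst hk
            simp [hj]
          · rw [Function.update_of_ne hk]
        have e2 : Function.update (fun k => if k ∈ s then y k else x k) j (y j) =
            fun k => if k ∈ insert j s then y k else x k := by
          funext k
          by_cases hk : k = j
          · subst hk
            simp
          · rw [Function.update_of_ne hk]
            simp [hk]
        simpa only [e1, e2] using h1
    have := key Finset.univ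
    simpa using this

/-- The congruence lattice as a lattice of preserved equivalence relations. -/
def conIso (A : FiniteAlgebra) : A.Con ≃o Preserved A.carrier (translations A) where
  toFun := fun r => ⟨r.1, (isCongruence_iff_translations A r.1).1 r.2⟩
  invFun := fun r => ⟨r.1, (isCongruence_iff_translations A r.1).2 r.2⟩
  left_inv := fun _ => rfl
  right_inv := fun _ => rfl
  map_rel_iff' := Iff.rfl

/-- The dual of a representable order is a lattice of closed subrings of a finite ring. -/
theorem dual_subrings {L : Type} [LE L] (hL : Representable L) :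
    ∃ (X : Type) (_ : Finite X) (_ : Nonempty X) (F : Set ((X → ZMod 2) →+* (X → ZMod 2))),
      Nonempty (Lᵒᵈ ≃o ClosedSubrings (X → ZMod 2) ⊥ F) := by
  obtain ⟨A, ⟨e⟩⟩ := hL
  have := A.finite_carrier
  exact ⟨A.carrier, A.finite_carrier, A.nonempty_carrier, _,
    ⟨((e.trans (conIso A)).dual).trans (dualIso (translations A))⟩⟩

end Vale.Agent.P183.R2.H285
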