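import Vale.Agent.P183.R2.H285.Boole

set_option autoImplicit false

/-!
P183: corollaries of the representability of the lattices of closed subrings of finite commutative
rings (the theorem itself is a parameter `hmain` here).
-/

namespace Vale.Agent.P183.R2.H285

open Vale.Agent.P183

theorem rep_iso {L M : Type} [LE L] [LE M] (e : L ≃o M) (h : Representable M) :
    Representable L := by
  obtain ⟨A, ⟨f⟩⟩ := h
  exact ⟨A, ⟨e.trans f⟩⟩

/-- Ring homomorphisms preserve the prime subring. -/
theorem map_bot_mem {R : Type} [CommRing R] (φ : R →+* R) :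
    ∀ x ∈ (⊥ : Subring R), φ x ∈ (⊥ : Subring R) := by
  intro x hx
  obtain ⟨n, rfl⟩ := Subring.mem_bot.1 hx
  rw [map_intCast]
  exact Subring.mem_bot.2 ⟨n, rfl⟩

/-- The main theorem, as a proposition. -/
def SubringsRepresentable : Prop :=
  ∀ (R : Type) [CommRing R] [Finite R] (S : Subring R) (F : Set (R →+* R)),
    (∀ φ ∈ F, ∀ x ∈ S, φ x ∈ S) → Representable (ClosedSubrings R S F)

/-- Duals of representable lattices are representable. -/
theorem dual_representable (hmain : SubringsRepresentable) {L : Type} [LE L]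
    (hL : Representable L) : Representable Lᵒᵈ := by
  obtain ⟨X, hX, -, F, ⟨e⟩⟩ := dual_subrings hL
  exact rep_iso e (hmain _ _ F fun φ _ => map_bot_mem φ)

/-- Every finite lattice is representable if and only if every finite lattice is the lattice of
the `F`-closed subrings over `S` of a finite commutative ring. -/
theorem all_iff (hmain : SubringsRepresentable) :
    (∀ (L : Type) [Lattice L] [Finite L] [Nonempty L], Representable L) ↔
      ∀ (L : Type) [Lattice L] [Finite L] [Nonempty L],
        ∃ (R : Type) (_ : CommRing R) (_ : Finite R) (S : Subring R) (F : Set (R →+* R)),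
          (∀ φ ∈ F, ∀ x ∈ S, φ x ∈ S) ∧ Nonempty (L ≃o ClosedSubrings R S F) := by
  constructor
  · intro h L _ _ _
    obtain ⟨X, hX, -, F, ⟨e⟩⟩ := dual_subrings (h Lᵒᵈ)
    exact ⟨X → ZMod 2, inferInstance, inferInstance, ⊥, F, fun φ _ => map_bot_mem φ,
      ⟨(OrderIso.dualDual L).trans e⟩⟩
  · intro h L _ _ _
    obtain ⟨R, _, _, S, F, hF, ⟨e⟩⟩ := h L
    exact rep_iso e (hmain R S F hF)

end Vale.Agent.P183.R2.H285
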