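import Vale.Agent.P183.Defs
import Mathlib.GroupTheory.Coset.Basic
import Mathlib.GroupTheory.GroupAction.Quotient
import Mathlib.Data.Finite.Sum
import Mathlib.Data.Finite.Prod
import Mathlib.Data.Fintype.Quotient

set_option autoImplicit false

/-!
P183: the subgroups between `H` and `G` that are closed under a set of endomorphisms of the
finite group `G` preserving `H` form a representable lattice.
-/

namespace Vale.Agent.P183.R2.H285

open Vale.Agent.P183

variable {G : Type} [Group G]

/-- An endomorphism of `G` preserving `H` acts on the cosets of `H`. -/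
def cosetMap (H : Subgroup G) (φ : G →* G) (hφ : ∀ h ∈ H, φ h ∈ H) : G ⧸ H → G ⧸ H :=
  Quotient.map' φ (by
    intro a b hab
    rw [QuotientGroup.leftRel_apply] at hab ⊢
    have := hφ _ hab
    rwa [map_mul, map_inv] at this)

@[simp] theorem cosetMap_mk (H : Subgroup G) (φ : G →* G) (hφ : ∀ h ∈ H, φ h ∈ H) (a : G) :
    cosetMap H φ hφ (a : G ⧸ H) = ((φ a : G) : G ⧸ H) := rfl

/-- The algebra of the cosets of `H` with the left translations and the given endomorphisms. -/
def opsAlgebra [Finite G] (H : Subgroup G) (Φ : Set (G →* G))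
    (hΦ : ∀ φ ∈ Φ, ∀ h ∈ H, φ h ∈ H) : FiniteAlgebra where
  carrier := G ⧸ H
  index := G ⊕ Φ
  arity := fun _ => 1
  op := fun i x => Sum.elim (fun g => g • x 0) (fun φ => cosetMap H φ.1 (hΦ φ.1 φ.2) (x 0)) i
  finite_carrier := Finite.of_surjective (fun g : G => (g : G ⧸ H)) QuotientGroup.mk_surjective
  nonempty_carrier := ⟨((1 : G) : G ⧸ H)⟩
  finite_index := by
    have : Finite (G →* G) := Finite.of_injective (fun φ : G →* G => (φ : G → G))
      DFunLike.coe_injective
    infer_instance

theorem isCongruence_iff [Finite G] (H : Subgroup G) (Φ : Set (G →* G))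
    (hΦ : ∀ φ ∈ Φ, ∀ h ∈ H, φ h ∈ H) (r : Setoid (G ⧸ H)) :
    (opsAlgebra H Φ hΦ).IsCongruence r ↔
      (∀ (g : G) (x y : G ⧸ H), r x y → r (g • x) (g • y)) ∧
      ∀ (φ : G →* G) (hφ : φ ∈ Φ) (x y : G ⧸ H), r x y →
        r (cosetMap H φ (hΦ φ hφ) x) (cosetMap H φ (hΦ φ hφ) y) := by
  constructor
  · intro h
    refine ⟨fun g x y hxy => ?_, fun φ hφ x y hxy => ?_⟩
    · exact h (Sum.inl g) (fun _ => x) (fun _ => y) (fun _ => hxy)
    · exact h (Sum.inr ⟨φ, hφ⟩) (fun _ => x) (fun _ => y) (fun _ => hxy)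
  · rintro ⟨h1, h2⟩ i x y hxy
    rcases i with g | φ
    · exact h1 g _ _ (hxy (0 : Fin 1))
    · exact h2 φ.1 φ.2 _ _ (hxy (0 : Fin 1))

/-- The congruence belonging to a subgroup between `H` and `G`. -/
def relOf (H L : Subgroup G) (hHL : H ≤ L) : Setoid (G ⧸ H) where
  r := fun x y => Quotient.liftOn₂' x y (fun a b => a⁻¹ * b ∈ L) (by
    intro a1 b1 a2 b2 h1 h2
    rw [QuotientGroup.leftRel_apply] at h1 h2
    have h1 := hHL h1
    have h2 := hHL h2
    refine propext ⟨fun h => ?_, fun h => ?_⟩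
    · have := L.mul_mem (L.mul_mem (L.inv_mem h1) h) h2
      simpa [mul_assoc] using this
    · have := L.mul_mem (L.mul_mem h1 h) (L.inv_mem h2)
      simpa [mul_assoc] using this)
  iseqv := by
    refine ⟨fun x => ?_, fun {x y} => ?_, fun {x y z} => ?_⟩
    · induction x using QuotientGroup.induction_on with | H a => ?_
      show a⁻¹ * a ∈ L
      simp
    · induction x using QuotientGroup.induction_on with | H a => ?_
      induction y using QuotientGroup.induction_on with | H b => ?_
      intro h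
      have h' : a⁻¹ * b ∈ L := h
      show b⁻¹ * a ∈ L
      simpa using L.inv_mem h'
    · induction x using QuotientGroup.induction_on with | H a => ?_
      induction y using QuotientGroup.induction_on with | H b => ?_
      induction z using QuotientGroup.induction_on with | H c => ?_
      intro h1 h2
      have h1' : a⁻¹ * b ∈ L := h1
      have h2' : b⁻¹ * c ∈ L := h2
      show a⁻¹ * c ∈ L
      simpa [mul_assoc] using L.mul_mem h1' h2'

theorem relOf_mk (H L : Subgroup G) (hHL : H ≤ L) (a b : G) :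
    relOf H L hHL (a : G ⧸ H) (b : G ⧸ H) ↔ a⁻¹ * b ∈ L := Iff.rfl

/-- The subgroups between `H` and `G` closed under `Φ`. -/
abbrev Closed (H : Subgroup G) (Φ : Set (G →* G)) : Type :=
  {L : Subgroup G // H ≤ L ∧ ∀ φ ∈ Φ, ∀ x ∈ L, φ x ∈ L}

/-- The block of `1` of a translation invariant equivalence relation. -/
def block (H : Subgroup G) (r : Setoid (G ⧸ H))
    (hr : ∀ (g : G) (x y : G ⧸ H), r x y → r (g • x) (g • y)) : Subgroup G where
  carrier := {g | r ((1 : G) : G ⧸ H) ((g : G) : G ⧸ H)}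
  one_mem' := r.refl _
  mul_mem' := by
    intro a b ha hb
    have h1 : r ((a : G) : G ⧸ H) ((a * b : G) : G ⧸ H) := by
      have := hr a _ _ hb
      simpa [← QuotientGroup.mk_mul, MulAction.Quotient.smul_mk] using this
    exact r.trans ha h1
  inv_mem' := by
    intro a ha
    have h1 := hr a⁻¹ _ _ ha
    have h2 : r ((a⁻¹ : G) : G ⧸ H) ((1 : G) : G ⧸ H) := by
      simpa [MulAction.Quotient.smul_mk] using h1
    exact r.symm h2

theorem mem_block (H : Subgroup G) (r : Setoid (G ⧸ H))
    (hr : ∀ (g : G) (x y : G ⧸ H), r x y → r (g • x) (g • y)) (g : G) :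
    g ∈ block H r hr ↔ r ((1 : G) : G ⧸ H) ((g : G) : G ⧸ H) := Iff.rfl

theorem block_inv_mul (H : Subgroup G) (r : Setoid (G ⧸ H))
    (hr : ∀ (g : G) (x y : G ⧸ H), r x y → r (g • x) (g • y)) (a b : G) :
    a⁻¹ * b ∈ block H r hr ↔ r ((a : G) : G ⧸ H) ((b : G) : G ⧸ H) := by
  rw [mem_block]
  constructor
  · intro h
    have := hr a _ _ h
    simpa [MulAction.Quotient.smul_mk] using this
  · intro h
    have := hr a⁻¹ _ _ h
    simpa [MulAction.Quotient.smul_mk] using this

theorem le_block (H : Subgroup G) (r : Setoid (G ⧸ H))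
    (hr : ∀ (g : G) (x y : G ⧸ H), r x y → r (g • x) (g • y)) : H ≤ block H r hr := by
  intro h hh
  rw [mem_block]
  have : ((1 : G) : G ⧸ H) = ((h : G) : G ⧸ H) := by
    rw [QuotientGroup.eq]
    simpa using hh
  exact this ▸ r.refl _

theorem block_closed (H : Subgroup G) (r : Setoid (G ⧸ H))
    (hr : ∀ (g : G) (x y : G ⧸ H), r x y → r (g • x) (g • y)) (φ : G →* G)
    (hφ : ∀ h ∈ H, φ h ∈ H)
    (hc : ∀ x y : G ⧸ H, r x y → r (cosetMap H φ hφ x) (cosetMap H φ hφ y)) :
    ∀ x ∈ block H r hr, φ x ∈ block H r hr := by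
  intro x hx
  rw [mem_block] at hx ⊢
  have := hc _ _ hx
  rw [cosetMap_mk, cosetMap_mk, map_one] at this
  exact this

theorem relOf_smul (H L : Subgroup G) (hHL : H ≤ L) (g : G) (x y : G ⧸ H)
    (h : relOf H L hHL x y) : relOf H L hHL (g • x) (g • y) := by
  induction x using QuotientGroup.induction_on with | H a => ?_
  induction y using QuotientGroup.induction_on with | H b => ?_
  have h' : a⁻¹ * b ∈ L := h
  show (g * a)⁻¹ * (g * b) ∈ L
  simpa [mul_assoc] using h'

theorem relOf_map (H L : Subgroup G) (hHL : H ≤ L) (φ : G →* G) (hφ : ∀ h ∈ H, φ h ∈ H)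
    (hL : ∀ x ∈ L, φ x ∈ L) (x y : G ⧸ H) (h : relOf H L hHL x y) :
    relOf H L hHL (cosetMap H φ hφ x) (cosetMap H φ hφ y) := by
  induction x using QuotientGroup.induction_on with | H a => ?_
  induction y using QuotientGroup.induction_on with | H b => ?_
  have h' : a⁻¹ * b ∈ L := h
  show (φ a)⁻¹ * φ b ∈ L
  simpa using hL _ h'

theorem block_relOf (H L : Subgroup G) (hHL : H ≤ L)
    (hr : ∀ (g : G) (x y : G ⧸ H), relOf H L hHL x y → relOf H L hHL (g • x) (g • y)) :
    block H (relOf H L hHL) hr = L := by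
  ext g
  show (1 : G)⁻¹ * g ∈ L ↔ g ∈ L
  simp

theorem relOf_block (H : Subgroup G) (r : Setoid (G ⧸ H))
    (hr : ∀ (g : G) (x y : G ⧸ H), r x y → r (g • x) (g • y)) :
    relOf H (block H r hr) (le_block H r hr) = r := by
  apply Setoid.ext
  intro x y
  induction x using QuotientGroup.induction_on with | H a => ?_
  induction y using QuotientGroup.induction_on with | H b => ?_
  exact block_inv_mul H r hr a b

theorem relOf_le_iff (H L L' : Subgroup G) (hHL : H ≤ L) (hHL' : H ≤ L') :
    relOf H L hHL ≤ relOf H L' hHL' ↔ L ≤ L' := by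
  constructor
  · intro h g hg
    have h1 : relOf H L hHL ((1 : G) : G ⧸ H) ((g : G) : G ⧸ H) := by
      show (1 : G)⁻¹ * g ∈ L
      simpa using hg
    have h2 : (1 : G)⁻¹ * g ∈ L' := h h1
    simpa using h2
  · intro h x y
    induction x using QuotientGroup.induction_on with | H a => ?_
    induction y using QuotientGroup.induction_on with | H b => ?_
    intro hab
    have hab' : a⁻¹ * b ∈ L := hab
    show a⁻¹ * b ∈ L'
    exact h hab'

/-- **Operators on a group interval.** For a finite group `G`, a subgroup `H` and a set `Φ` of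
endomorphisms of `G` mapping `H` into itself, the lattice of all subgroups `L` of `G` containing
`H` and mapped into themselves by all members of `Φ` is representable. -/
theorem representable_closed [Finite G] (H : Subgroup G) (Φ : Set (G →* G))
    (hΦ : ∀ φ ∈ Φ, ∀ h ∈ H, φ h ∈ H) : Representable (Closed H Φ) := by
  refine ⟨opsAlgebra H Φ hΦ, ⟨?_⟩⟩
  exact
    { toFun := fun L => ⟨relOf H L.1 L.2.1, (isCongruence_iff H Φ hΦ _).2
        ⟨fun g x y h => relOf_smul H L.1 L.2.1 g x y h,
          fun φ hφ x y h => relOf_map H L.1 L.2.1 φ (hΦ φ hφ) (L.2.2 φ hφ) x y h⟩⟩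
      invFun := fun r => ⟨block H r.1 ((isCongruence_iff H Φ hΦ r.1).1 r.2).1,
        le_block H r.1 ((isCongruence_iff H Φ hΦ r.1).1 r.2).1,
        fun φ hφ => block_closed H r.1 ((isCongruence_iff H Φ hΦ r.1).1 r.2).1 φ (hΦ φ hφ)
          (((isCongruence_iff H Φ hΦ r.1).1 r.2).2 φ hφ)⟩
      left_inv := fun L => Subtype.ext (block_relOf H L.1 L.2.1
        (fun g x y h => relOf_smul H L.1 L.2.1 g x y h))
      right_inv := fun r => Subtype.ext (relOf_block H r.1
        ((isCongruence_iff H Φ hΦ r.1).1 r.2).1)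
      map_rel_iff' := fun {L L'} => relOf_le_iff H L.1 L'.1 L.2.1 L'.2.1 }

end Vale.Agent.P183.R2.H285
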